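import Vale.Agent.P004.R2.H123.Iface
import Vale.Agent.P004G.H628.Poly

/-!
# P004: the product of the blocks `Mfx` as a Dirichlet polynomial (`StPolyx`)
-/

open Real Set

namespace P004G.H747

variable [Crv]

open P004.H628 (yk_pos yk_anti sum_lk')
open P004G.H628 (mem_Ik Ik_disj cm cm_mul muc_le)

lemma yk_div_le {L K : ℝ} (hL : 0 ≤ L) (hK : 1 ≤ K) (k : ℕ) : yk (L / K) k ≤ yk L k := by
  have h1 : L / K ≤ L := div_le_self hL hK
  unfold yk
  apply Real.exp_le_exp.2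
  exact mul_le_mul_of_nonneg_right (by linarith) (Real.exp_pos _).le

lemma mem_Ibx {L K : ℝ} {p : ℕ} : p ∈ Ibx L K ↔ (p : ℝ) ≤ yk L 0 ∧ p.Prime ∧ ¬ p ∣ bd ∧
    yk (L / K) 0 < p := by
  unfold Ibx
  rw [Finset.mem_filter, Finset.mem_range, Nat.lt_succ_iff, Nat.le_floor_iff (yk_pos L 0).le]

lemma mem_of_dvd_prod {I : Finset ℕ} (hI : ∀ q ∈ I, q.Prime) {a p : ℕ}
    (h : a ∣ ∏ q ∈ I, q ^ 2) (hp : p.Prime) (hpa : p ∣ a) : p ∈ I := by
  have h1 : p ∣ ∏ q ∈ I, q ^ 2 := hpa.trans h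
  rw [hp.prime.dvd_finsetProd_iff] at h1
  obtain ⟨q, hq, hpq⟩ := h1
  have h2 : p ∣ q := hp.dvd_of_dvd_pow hpq
  rw [(Nat.prime_dvd_prime_iff_eq hp (hI q hq)).mp h2]
  exact hq

lemma Akx_mem {L K : ℝ} {k a : ℕ} (ha : a ∈ Akx L K k) : a ≠ 0 ∧
    a ∣ ∏ p ∈ Ik (L / K) k, p ^ 2 ∧ ArithmeticFunction.cardFactors a ≤ ⌈K⌉₊ * lk k := by
  unfold Akx at ha
  rw [Finset.mem_filter, Nat.mem_divisors] at ha
  exact ⟨fun h => ha.1.2 (by simpa [h] using ha.1.1), ha.1.1, ha.2⟩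

lemma Abx_mem {L K : ℝ} {a : ℕ} (ha : a ∈ Abx L K) : a ≠ 0 ∧
    a ∣ ∏ p ∈ Ibx L K, p ^ 2 ∧ (a : ℝ) ≤ Real.exp (L / 4000) := by
  unfold Abx at ha
  rw [Finset.mem_filter, Nat.mem_divisors] at ha
  exact ⟨fun h => ha.1.2 (by simpa [h] using ha.1.1), ha.1.1, ha.2⟩

lemma Akx_prime {L K : ℝ} {k a p : ℕ} (ha : a ∈ Akx L K k) (hp : p.Prime) (hpa : p ∣ a) :
    p ∈ Ik (L / K) k :=
  mem_of_dvd_prod (fun _ hq => (mem_Ik.mp hq).2.1) (Akx_mem ha).2.1 hp hpa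

lemma Abx_prime {L K : ℝ} {a p : ℕ} (ha : a ∈ Abx L K) (hp : p.Prime) (hpa : p ∣ a) :
    p ∈ Ibx L K :=
  mem_of_dvd_prod (fun _ hq => (mem_Ibx.mp hq).2.1) (Abx_mem ha).2.1 hp hpa

lemma log_le_of_card {a l : ℕ} {y : ℝ} (ha : a ≠ 0) (hy : 1 ≤ y)
    (hp : ∀ p : ℕ, p.Prime → p ∣ a → (p : ℝ) ≤ y)
    (hc : ArithmeticFunction.cardFactors a ≤ l) : Real.log a ≤ l * Real.log y := by
  have h3 : (a : ℝ) ≤ y ^ (a.primeFactorsList.length) := by
    have h4 : ∀ l : List ℕ, (∀ p ∈ l, (p : ℝ) ≤ y) → ((l.prod : ℕ) : ℝ) ≤ y ^ l.length := by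
      intro l
      induction l with
      | nil => intro _; simp
      | cons p l ih =>
        intro h
        rw [List.prod_cons, List.length_cons, pow_succ, Nat.cast_mul, mul_comm]
        have h5 := ih (fun q hq => h q (List.mem_cons_of_mem _ hq))
        have h6 := h p List.mem_cons_self
        have h7 : 0 ≤ y := by linarith
        exact mul_le_mul h5 h6 (Nat.cast_nonneg _) (pow_nonneg h7 _)
    have h5 := h4 a.primeFactorsList (fun p hp' => by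
      have hp1 := Nat.prime_of_mem_primeFactorsList hp'
      have hp2 := Nat.dvd_of_mem_primeFactorsList hp'
      exact hp p hp1 hp2)
    rwa [Nat.prod_primeFactorsList ha] at h5
  have h6 : (0 : ℝ) < a := by exact_mod_cast Nat.pos_of_ne_zero ha
  have h7 := Real.log_le_log h6 h3
  rw [Real.log_pow] at h7
  have h9 : (a.primeFactorsList.length : ℝ) ≤ l := by
    exact_mod_cast hc
  exact h7.trans (mul_le_mul_of_nonneg_right h9 (Real.log_nonneg hy))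

lemma ceil_le_two_mul {K : ℝ} (hK : 1 ≤ K) : (⌈K⌉₊ : ℝ) ≤ 2 * K := by
  have := Nat.ceil_lt_add_one (by linarith : 0 ≤ K)
  linarith

lemma Akx_log {L K : ℝ} (hL : 0 ≤ L) (hK : 1 ≤ K) {k a : ℕ} (ha : a ∈ Akx L K k) :
    Real.log a ≤ 2 * (L / 8000) * (lk k * Real.exp (-(k : ℝ))) := by
  obtain ⟨h0, h1, h2⟩ := Akx_mem ha
  have hLK : 0 ≤ L / K := by positivity
  have hy : (1 : ℝ) ≤ yk (L / K) k := by
    unfold yk
    exact Real.one_le_exp (by positivity)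
  have h3 := log_le_of_card h0 hy (fun p hp hpa => (mem_Ik.mp (Akx_prime ha hp hpa)).1) h2
  have h8 : Real.log (yk (L / K) k) = L / K / 8000 * Real.exp (-(k : ℝ)) := by
    unfold yk; rw [Real.log_exp]
  rw [h8] at h3
  refine h3.trans ?_
  have h4 : ((⌈K⌉₊ * lk k : ℕ) : ℝ) * (L / K / 8000 * Real.exp (-(k : ℝ))) =
      (⌈K⌉₊ : ℝ) * (L / K / 8000 * (lk k * Real.exp (-(k : ℝ)))) := by
    push_cast; ring
  have h5 : 2 * (L / 8000) * (lk k * Real.exp (-(k : ℝ))) =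
      2 * K * (L / K / 8000 * (lk k * Real.exp (-(k : ℝ)))) := by
    have : K ≠ 0 := by linarith
    field_simp
  rw [h4, h5]
  exact mul_le_mul_of_nonneg_right (ceil_le_two_mul hK) (by positivity)

lemma Abx_log {L K : ℝ} {a : ℕ} (ha : a ∈ Abx L K) : Real.log a ≤ L / 4000 := by
  obtain ⟨h0, h1, h2⟩ := Abx_mem ha
  have h6 : (0 : ℝ) < a := by exact_mod_cast Nat.pos_of_ne_zero h0
  rwa [Real.log_le_iff_le_exp h6]

/-- a product of blocks with pairwise different primes is a Dirichlet polynomial -/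
lemma prod_gen {ι : Type*} [DecidableEq ι] (L K : ℝ) (A I : ι → Finset ℕ) (w : ι → ℝ)
    (T : Finset ι) (hA0 : ∀ i ∈ T, ∀ a ∈ A i, a ≠ 0)
    (hAp : ∀ i ∈ T, ∀ a ∈ A i, ∀ p : ℕ, p.Prime → p ∣ a → p ∈ I i)
    (hAw : ∀ i ∈ T, ∀ a ∈ A i, Real.log a ≤ w i)
    (hd : ∀ i ∈ T, ∀ j ∈ T, ∀ p : ℕ, p ∈ I i → p ∈ I j → i = j) :
    ∃ S : Finset ℕ, (∀ X : ℕ → ℝ, CM X →
        ∏ i ∈ T, (∑ a ∈ A i, cm L K a * X a) = ∑ a ∈ S, cm L K a * X a) ∧
      ∀ a ∈ S, a ≠ 0 ∧ (∀ p : ℕ, p.Prime → p ∣ a → ∃ i ∈ T, p ∈ I i) ∧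
        Real.log a ≤ ∑ i ∈ T, w i := by
  induction T using Finset.induction_on with
  | empty =>
    refine ⟨{1}, ?_, ?_⟩
    · intro X hX
      simp [cm, muc, hX.1]
    · intro a ha
      rw [Finset.mem_singleton] at ha
      subst ha
      refine ⟨one_ne_zero, ?_, by simp⟩
      intro p hp hp1
      exact absurd (Nat.dvd_one.mp hp1) hp.one_lt.ne'
  | insert k T hk ih =>
    obtain ⟨S, hS1, hS2⟩ := ih
      (fun i hi => hA0 i (Finset.mem_insert_of_mem hi))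
      (fun i hi => hAp i (Finset.mem_insert_of_mem hi))
      (fun i hi => hAw i (Finset.mem_insert_of_mem hi))
      (fun i hi j hj => hd i (Finset.mem_insert_of_mem hi) j (Finset.mem_insert_of_mem hj))
    have hkk : k ∈ insert k T := Finset.mem_insert_self _ _
    have hcop : ∀ b ∈ A k, ∀ a ∈ S, Nat.Coprime b a := by
      intro b hb a ha
      rw [Nat.coprime_iff_gcd_eq_one]
      by_contra hne
      obtain ⟨p, hp, hpd⟩ := Nat.exists_prime_and_dvd hne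
      have h1 := hAp k hkk b hb p hp (hpd.trans (Nat.gcd_dvd_left _ _))
      obtain ⟨l, hl, h2⟩ := (hS2 a ha).2.1 p hp (hpd.trans (Nat.gcd_dvd_right _ _))
      exact hk ((hd k hkk l (Finset.mem_insert_of_mem hl) p h1 h2) ▸ hl)
    have hinj : Set.InjOn (fun q : ℕ × ℕ => q.1 * q.2) (↑(A k ×ˢ S) : Set (ℕ × ℕ)) := by
      rintro ⟨b, a⟩ h1 ⟨b', a'⟩ h2 h3
      rw [Finset.mem_coe, Finset.mem_product] at h1 h2
      simp only at h1 h2 h3
      have e1 : b = b' := by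
        apply Nat.dvd_antisymm
        · exact (hcop b h1.1 a' h2.2).dvd_of_dvd_mul_right (h3 ▸ Dvd.intro _ rfl)
        · exact (hcop b' h2.1 a h1.2).dvd_of_dvd_mul_right (h3 ▸ Dvd.intro _ rfl)
      subst e1
      have e2 : a = a' := Nat.eq_of_mul_eq_mul_left (Nat.pos_of_ne_zero (hA0 k hkk b h1.1)) h3
      rw [e2]
    refine ⟨(A k ×ˢ S).image (fun q : ℕ × ℕ => q.1 * q.2), ?_, ?_⟩
    · intro X hX
      rw [Finset.prod_insert hk, hS1 X hX, Finset.sum_image hinj, Finset.sum_product]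
      rw [Finset.sum_mul_sum]
      refine Finset.sum_congr rfl fun b hb => Finset.sum_congr rfl fun a ha => ?_
      rw [cm_mul L K (hA0 k hkk b hb) (hS2 a ha).1 (hcop b hb a ha),
        hX.2 b a (hA0 k hkk b hb) (hS2 a ha).1]
      ring
    · intro c hc
      rw [Finset.mem_image] at hc
      obtain ⟨⟨b, a⟩, h1, rfl⟩ := hc
      rw [Finset.mem_product] at h1
      simp only at h1 ⊢
      obtain ⟨hb, ha⟩ := h1
      have hb0 := hA0 k hkk b hb
      obtain ⟨ha0, ha1, ha2⟩ := hS2 a ha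
      refine ⟨mul_ne_zero hb0 ha0, ?_, ?_⟩
      · intro p hp hpd
        rcases hp.dvd_mul.mp hpd with h | h
        · exact ⟨k, hkk, hAp k hkk b hb p hp h⟩
        · obtain ⟨l, hl, h2⟩ := ha1 p hp h
          exact ⟨l, Finset.mem_insert_of_mem hl, h2⟩
      · rw [Nat.cast_mul, Real.log_mul (by exact_mod_cast hb0) (by exact_mod_cast ha0),
          Finset.sum_insert hk]
        exact add_le_add (hAw k hkk b hb) ha2

/-- the supports, `none` is the big block -/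
noncomputable def Ao (L K : ℝ) : Option ℕ → Finset ℕ
  | none => Abx L K
  | some k => Akx L K k

/-- the primes, `none` is the big block -/
noncomputable def Io (L K : ℝ) : Option ℕ → Finset ℕ
  | none => Ibx L K
  | some k => Ik (L / K) k

/-- the logarithmic sizes, `none` is the big block -/
noncomputable def wo (L : ℝ) : Option ℕ → ℝ
  | none => L / 4000
  | some k => 2 * (L / 8000) * (lk k * Real.exp (-(k : ℝ)))

lemma Io_disj {L K : ℝ} (hL : 0 ≤ L) (hK : 1 ≤ K) (i j : Option ℕ) (p : ℕ) (hi : p ∈ Io L K i)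
    (hj : p ∈ Io L K j) : i = j := by
  have hLK : 0 ≤ L / K := by positivity
  rcases i with _ | k <;> rcases j with _ | l
  · rfl
  · exfalso
    have h1 := (mem_Ibx.mp hi).2.2.2
    have h2 := (mem_Ik.mp hj).1.trans (yk_anti hLK (Nat.zero_le l))
    linarith
  · exfalso
    have h1 := (mem_Ibx.mp hj).2.2.2
    have h2 := (mem_Ik.mp hi).1.trans (yk_anti hLK (Nat.zero_le k))
    linarith
  · rw [Ik_disj hLK hi hj]

lemma sum_wo_zero {L : ℝ} (hL : 0 ≤ L) (k₂ : ℕ) :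
    L / 4000 + ∑ k ∈ Finset.Ico 0 k₂, 2 * (L / 8000) * ((lk k : ℝ) * Real.exp (-(k : ℝ))) ≤
      L / 700 := by
  have h2 : (Real.exp (-(1 : ℝ) / 2)) ≤ 0.61 := by
    have h3 : (0.61 : ℝ)⁻¹ ≤ Real.exp (1 / 2) := by
      have h5 := Real.quadratic_le_exp_of_nonneg (show (0 : ℝ) ≤ 1 / 4 by norm_num)
      have h4 : Real.exp (1 / 2 : ℝ) = Real.exp (1 / 4) * Real.exp (1 / 4) := by
        rw [← Real.exp_add]; norm_num
      rw [h4]
      nlinarith
    have h6 : Real.exp (-(1 : ℝ) / 2) = (Real.exp (1 / 2))⁻¹ := by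
      rw [← Real.exp_neg]; norm_num
    rw [h6]
    rw [inv_le_comm₀ (Real.exp_pos _) (by norm_num)]
    exact h3
  have h1 : ∑ k ∈ Finset.Ico 0 k₂, (lk k : ℝ) * Real.exp (-(k : ℝ)) ≤ 4.05 := by
    rcases Nat.eq_zero_or_pos k₂ with h | h
    · subst h
      simp
      norm_num
    · rw [Finset.sum_eq_sum_Ico_succ_bot h]
      have h3 := sum_lk' 1 k₂
      have h4 : (lk 0 : ℝ) * Real.exp (-((0 : ℕ) : ℝ)) = 1 := by
        unfold lk
        simp
      rw [h4]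
      have h5 : -((1 : ℕ) : ℝ) / 2 = -(1 : ℝ) / 2 := by norm_num
      rw [h5] at h3
      linarith
  rw [← Finset.mul_sum]
  have h3 : 2 * (L / 8000) * ∑ k ∈ Finset.Ico 0 k₂, (lk k : ℝ) * Real.exp (-(k : ℝ)) ≤
      2 * (L / 8000) * 4.05 := mul_le_mul_of_nonneg_left h1 (by positivity)
  linarith

lemma sum_wo_pos {L : ℝ} (hL : 0 ≤ L) (k₁ k₂ : ℕ) :
    ∑ k ∈ Finset.Ico k₁ k₂, 2 * (L / 8000) * ((lk k : ℝ) * Real.exp (-(k : ℝ))) ≤
      L / 700 * Real.exp (-(k₁ : ℝ) / 2) := by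
  rw [← Finset.mul_sum]
  have h1 := sum_lk' k₁ k₂
  have h3 : 2 * (L / 8000) * ∑ k ∈ Finset.Ico k₁ k₂, (lk k : ℝ) * Real.exp (-(k : ℝ)) ≤
      2 * (L / 8000) * (5 * Real.exp (-(k₁ : ℝ) / 2)) :=
    mul_le_mul_of_nonneg_left h1 (by positivity)
  have h4 : 0 ≤ L * Real.exp (-(k₁ : ℝ) / 2) := by positivity
  linarith

lemma exists_poly {L K : ℝ} (hL : 0 ≤ L) (hK : 1 ≤ K) (k₁ k₂ : ℕ) :
    ∃ S : Finset ℕ, (∀ X : ℕ → ℝ, CM X → Mfx L K k₁ k₂ X = ∑ a ∈ S, cm L K a * X a) ∧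
      ∀ a ∈ S, a ≠ 0 ∧ (∀ p : ℕ, p.Prime → p ∣ a → (p : ℝ) ≤ yk L k₁ ∧ ¬ p ∣ bd) ∧
        Real.log a ≤ L / 700 * Real.exp (-(k₁ : ℝ) / 2) := by
  have hA0 : ∀ i : Option ℕ, ∀ a ∈ Ao L K i, a ≠ 0 := by
    rintro (_ | k) a ha
    · exact (Abx_mem ha).1
    · exact (Akx_mem ha).1
  have hAp : ∀ i : Option ℕ, ∀ a ∈ Ao L K i, ∀ p : ℕ, p.Prime → p ∣ a → p ∈ Io L K i := by
    rintro (_ | k) a ha p hp hpa
    · exact Abx_prime ha hp hpa
    · exact Akx_prime ha hp hpa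
  have hAw : ∀ i : Option ℕ, ∀ a ∈ Ao L K i, Real.log a ≤ wo L i := by
    rintro (_ | k) a ha
    · exact Abx_log ha
    · exact Akx_log hL hK ha
  by_cases hk : k₁ = 0
  · subst hk
    obtain ⟨S, hS1, hS2⟩ := prod_gen L K (Ao L K) (Io L K) (wo L)
      (Finset.insertNone (Finset.Ico 0 k₂)) (fun i _ => hA0 i) (fun i _ => hAp i)
      (fun i _ => hAw i) (fun i _ j _ p => Io_disj hL hK i j p)
    refine ⟨S, fun X hX => ?_, fun a ha => ?_⟩
    · rw [← hS1 X hX, Finset.prod_insertNone]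
      unfold Mfx
      rw [if_pos rfl]
      rfl
    · obtain ⟨h0, h1, h2⟩ := hS2 a ha
      refine ⟨h0, fun p hp hpa => ?_, ?_⟩
      · obtain ⟨i, hi, hpi⟩ := h1 p hp hpa
        rcases i with _ | k
        · exact ⟨(mem_Ibx.mp hpi).1, (mem_Ibx.mp hpi).2.2.1⟩
        · exact ⟨((mem_Ik.mp hpi).1.trans (yk_div_le hL hK k)).trans
            (yk_anti hL (Nat.zero_le k)), (mem_Ik.mp hpi).2.2.1⟩
      · refine h2.trans ?_
        rw [Finset.sum_insertNone]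
        have h3 := sum_wo_zero hL k₂
        have h4 : Real.exp (-((0 : ℕ) : ℝ) / 2) = 1 := by simp
        rw [h4, mul_one]
        exact h3
  · obtain ⟨S, hS1, hS2⟩ := prod_gen L K (Ao L K) (Io L K) (wo L)
      ((Finset.Ico k₁ k₂).map Function.Embedding.some) (fun i _ => hA0 i) (fun i _ => hAp i)
      (fun i _ => hAw i) (fun i _ j _ p => Io_disj hL hK i j p)
    refine ⟨S, fun X hX => ?_, fun a ha => ?_⟩
    · rw [← hS1 X hX, Finset.prod_map]
      unfold Mfx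
      rw [if_neg hk, one_mul]
      rfl
    · obtain ⟨h0, h1, h2⟩ := hS2 a ha
      refine ⟨h0, fun p hp hpa => ?_, ?_⟩
      · obtain ⟨i, hi, hpi⟩ := h1 p hp hpa
        rw [Finset.mem_map] at hi
        obtain ⟨k, hk1, rfl⟩ := hi
        exact ⟨((mem_Ik.mp hpi).1.trans (yk_div_le hL hK k)).trans
            (yk_anti hL (Finset.mem_Ico.mp hk1).1), (mem_Ik.mp hpi).2.2.1⟩
      · refine h2.trans ?_
        rw [Finset.sum_map]
        exact sum_wo_pos hL k₁ k₂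

theorem polyx_aux : StPolyx := by
  intro L K k₁ k₂ hL hK _
  have hL0 : 0 ≤ L := by linarith
  obtain ⟨S, hS1, hS2⟩ := exists_poly hL0 hK k₁ k₂
  classical
  refine ⟨S.filter (fun a => muc a ≠ 0), cm L K, ?_, ?_⟩
  · intro X hX
    rw [hS1 X hX, Finset.sum_filter_of_ne]
    intro a _ h1 h2
    apply h1
    unfold cm
    rw [h2]
    ring
  · intro a ha
    rw [Finset.mem_filter] at ha
    obtain ⟨ha, hmu⟩ := ha
    obtain ⟨h0, h1, h2⟩ := hS2 a ha
    have ha1 : (1 : ℝ) ≤ a := by exact_mod_cast Nat.pos_of_ne_zero h0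
    have ha0 : (0 : ℝ) < a := by linarith
    refine ⟨?_, ⟨h0, ?_⟩, ?_, ?_⟩
    · unfold cm
      rw [abs_mul, abs_of_pos (Real.rpow_pos_of_pos ha0 _)]
      have h3 : (a : ℝ) ^ (-1 - K / L) ≤ (a : ℝ) ^ (-1 : ℝ) := by
        apply Real.rpow_le_rpow_of_exponent_le ha1
        have : 0 ≤ K / L := by positivity
        linarith
      calc |muc a| * (a : ℝ) ^ (-1 - K / L) ≤ a * (a : ℝ) ^ (-1 : ℝ) :=
            mul_le_mul (muc_le h0) h3 (Real.rpow_pos_of_pos ha0 _).le ha0.le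
        _ = 1 := by rw [Real.rpow_neg_one, mul_inv_cancel₀ ha0.ne']
    · rw [Nat.coprime_iff_gcd_eq_one]
      by_contra hne
      obtain ⟨p, hp, hpd⟩ := Nat.exists_prime_and_dvd hne
      exact (h1 p hp (hpd.trans (Nat.gcd_dvd_left _ _))).2 (hpd.trans (Nat.gcd_dvd_right _ _))
    · rw [← Real.log_le_iff_le_exp ha0]
      exact h2
    · intro p hp hpa
      exact (h1 p hp hpa).1

end P004G.H747

namespace P004G

variable [Crv]

/-- Module M0x : the product of blocks as a Dirichlet polynomial. -/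
theorem pfPolyx : StPolyx := H747.polyx_aux

end P004G
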