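import Vale.Agent.P004.R2.H747.R4x
import Vale.Agent.P004.R2.H123.Big

/-!
# P004, module R4x without hypotheses
-/

namespace P004G

variable [Crv]

theorem pfR4xx : StR4x := by
  obtain ⟨C, A, h1, h2⟩ := P004G.H293.EE_Big1 pfCoef
  exact pfR4x ⟨C, A, h1, fun L K hL hK _ => h2 L K hL hK⟩

end P004G
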