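import Vale.Agent.P004.R2.H747.Polyx
import Vale.Agent.P004G.H293.R4

/-!
# P004, module R4x: second moment of the first blocks of `Mfx`
-/

open Finset Real

namespace P004G.H747

variable [Crv]

open P004.H293 (EE DepOn EE_nonneg EE_of_depOn EE_union EE_biUnion sum_inv_range)
open P004.H628 (yk_pos yk_anti)
open P004G.H628 (mem_Ik Ik_disj)
open P004G.H293 (MM MM_depOn MM2_depOn EE_MM2 Ik_prime Ik_three Ik_pairwise sum_Ik log_yk
  depOn_sum_ffx)

lemma Mkx_eq (L K : ℝ) (k : ℕ) (ω : ℕ → ℝ) :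
    Mkx L K k (P004.H628.ffx ω) = MM (Ik (L / K) k) (⌈K⌉₊ * lk k) (K / L) ω := by
  unfold Mkx MM Akx
  rfl

lemma Mbx_depOn (L K : ℝ) :
    DepOn (Ibx L K) (fun ω => Mbx L K (P004.H628.ffx ω) ^ 2) := by
  have h1 : DepOn (Ibx L K) (fun ω => Mbx L K (P004.H628.ffx ω)) := by
    unfold Mbx
    refine depOn_sum_ffx (fun a ha p hp => ?_) _
    exact Abx_prime ha (Nat.prime_of_mem_primeFactors hp) (Nat.dvd_of_mem_primeFactors hp)
  intro ω ω' h
  have h2 := h1 ω ω' h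
  simp only at h2 ⊢
  rw [h2]

lemma Ibx_sub {L K : ℝ} {N : ℕ} (hN : yk L 0 < N) : Ibx L K ⊆ range N := by
  intro p hp
  rw [mem_range]
  have h1 : (p : ℝ) < N := (mem_Ibx.1 hp).1.trans_lt hN
  exact_mod_cast h1

lemma Ikx_le {L K : ℝ} (hL : 0 ≤ L) (hK : 1 ≤ K) {k p : ℕ} (hp : p ∈ Ik (L / K) k) :
    (p : ℝ) ≤ yk L 0 :=
  ((mem_Ik.1 hp).1.trans (yk_div_le hL hK k)).trans (yk_anti hL (Nat.zero_le k))

lemma Ux_sub {L K : ℝ} (hL : 0 ≤ L) (hK : 1 ≤ K) {N : ℕ} (hN : yk L 0 < N) (J : Finset ℕ) :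
    J.biUnion (fun k => Ik (L / K) k) ⊆ range N := by
  intro p hp
  obtain ⟨k, _, hk⟩ := mem_biUnion.1 hp
  rw [mem_range]
  have h1 : (p : ℝ) < N := (Ikx_le hL hK hk).trans_lt hN
  exact_mod_cast h1

lemma Ibx_disj {L K : ℝ} (hL : 0 ≤ L) (hK : 1 ≤ K) (J : Finset ℕ) :
    Disjoint (Ibx L K) (J.biUnion (fun k => Ik (L / K) k)) := by
  rw [Finset.disjoint_left]
  intro p hp hq
  obtain ⟨k, _, hk⟩ := mem_biUnion.1 hq
  have := Io_disj hL hK none (some k) p hp hk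
  exact absurd this (by simp)

lemma EN_Mfx_eq {L K : ℝ} (hL : 0 ≤ L) (hK : 1 ≤ K) (k₂ : ℕ) {N : ℕ} (hN : yk L 0 < N) :
    EN N (fun X => (Mfx L K 0 k₂ X) ^ 2) =
      EE (Ibx L K) (fun ω => Mbx L K (P004.H628.ffx ω) ^ 2) *
        ∏ k ∈ Ico 0 k₂, EE (Ik (L / K) k)
          (fun ω => MM (Ik (L / K) k) (⌈K⌉₊ * lk k) (K / L) ω ^ 2) := by
  have hLK : 0 ≤ L / K := by positivity
  rw [P004.H628.EN_eq]
  have h2 : (fun ω => (Mfx L K 0 k₂ (P004.H628.ffx ω)) ^ 2) =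
      fun ω => Mbx L K (P004.H628.ffx ω) ^ 2 *
        ∏ k ∈ Ico 0 k₂, MM (Ik (L / K) k) (⌈K⌉₊ * lk k) (K / L) ω ^ 2 := by
    funext ω
    unfold Mfx
    rw [if_pos rfl, mul_pow, Finset.prod_pow,
      Finset.prod_congr rfl (fun k _ => Mkx_eq L K k ω)]
  rw [h2]
  have hd1 : DepOn ((Ico 0 k₂).biUnion (fun k => Ik (L / K) k)) (fun ω =>
      ∏ k ∈ Ico 0 k₂, MM (Ik (L / K) k) (⌈K⌉₊ * lk k) (K / L) ω ^ 2) :=
    P004.H293.DepOn.prod (Ico 0 k₂) fun k hk =>
      (MM2_depOn k _ _).mono (Finset.subset_biUnion_of_mem _ hk)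
  have hsub : Ibx L K ∪ (Ico 0 k₂).biUnion (fun k => Ik (L / K) k) ⊆ range N :=
    Finset.union_subset (Ibx_sub hN) (Ux_sub hL hK hN _)
  have hd2 := ((Mbx_depOn L K).mono (Finset.subset_union_left
      (s₂ := (Ico 0 k₂).biUnion (fun k => Ik (L / K) k)))).mul
    (hd1.mono (Finset.subset_union_right (s₁ := Ibx L K)))
  rw [EE_of_depOn hsub hd2, EE_union (Ibx_disj hL hK _) (Mbx_depOn L K) hd1,
    EE_biUnion (Ico 0 k₂) (fun k => Ik (L / K) k) (Ik_pairwise hLK _)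
      (fun k ω => MM (Ik (L / K) k) (⌈K⌉₊ * lk k) (K / L) ω ^ 2)
      (fun k _ => MM2_depOn k _ _)]

lemma prod_small_le {L K : ℝ} (hL : 0 < L) (hK : 1 ≤ K) (k₂ : ℕ) :
    ∏ k ∈ Ico 0 k₂, EE (Ik (L / K) k)
        (fun ω => MM (Ik (L / K) k) (⌈K⌉₊ * lk k) (K / L) ω ^ 2) ≤
      Real.exp (11000 * ∑ k ∈ Ico 0 k₂, ∑ p ∈ Ik (L / K) k, (1 : ℝ) / p) := by
  rw [Finset.mul_sum, Real.exp_sum]
  refine Finset.prod_le_prod (fun k _ => ?_) fun k _ => ?_
  · exact EE_nonneg (fun p hp => (Ik_prime hp).one_lt.le) fun ω _ => by positivity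
  · refine (EE_MM2 (fun p hp => Ik_prime hp) (fun p hp => Ik_three hp) pfCoef (⌈K⌉₊ * lk k)
      (by positivity)).trans ?_
    rw [Finset.mul_sum, Real.exp_sum]
    refine Finset.prod_le_prod (fun p _ => by positivity) fun p _ => ?_
    linarith [Real.add_one_le_exp (11000 * ((1 : ℝ) / p))]

lemma sum_Ux_le {L K : ℝ} (hL : 1 ≤ L) (hK : 1 ≤ K) (k₂ : ℕ) :
    ∑ k ∈ Ico 0 k₂, ∑ p ∈ Ik (L / K) k, (1 : ℝ) / p ≤ 8 * (1 + Real.log L) := by
  have hL0 : 0 < L := by linarith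
  have hLK : 0 ≤ L / K := by positivity
  rw [← Finset.sum_biUnion (Ik_pairwise hLK _)]
  set U := (Ico 0 k₂).biUnion (fun k => Ik (L / K) k) with hU
  have hUp : ∀ p ∈ U, p.Prime := by
    intro p hp
    obtain ⟨k, _, hk⟩ := mem_biUnion.1 hp
    exact Ik_prime hk
  have hUy : ∀ p ∈ U, (p : ℝ) ≤ yk L 0 := by
    intro p hp
    obtain ⟨k, _, hk⟩ := mem_biUnion.1 hp
    exact Ikx_le hL0.le hK hk
  have hlogL : 0 ≤ Real.log L := Real.log_nonneg hL
  rcases lt_or_ge (yk L 0) 2 with h | h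
  · have : U = ∅ := by
      rw [Finset.eq_empty_iff_forall_notMem]
      intro p hp
      have h3 : (2 : ℝ) ≤ p := by exact_mod_cast (hUp p hp).two_le
      linarith [hUy p hp]
    rw [this]; simp; linarith
  · have h1 := sum_inv_range hUp le_rfl h (fun p hp => by exact_mod_cast (hUp p hp).two_le) hUy
    refine h1.trans ?_
    have h2 : Real.log (Real.log (yk L 0) / Real.log 2) ≤ Real.log L := by
      apply Real.log_le_log
      · have := Real.log_pos (by linarith : 1 < yk L 0)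
        have := Real.log_pos (by norm_num : (1 : ℝ) < 2)
        positivity
      · rw [div_le_iff₀ (Real.log_pos (by norm_num)), log_yk]
        simp only [CharP.cast_eq_zero, neg_zero, Real.exp_zero, mul_one]
        have := Real.log_two_gt_d9
        nlinarith
    linarith

/-- Module R4x, from the second moment of the big block. -/
theorem r4x_of_big (hb : ∃ (C : ℝ) (A : ℕ), 1 ≤ C ∧ ∀ L K : ℝ, 1 ≤ L → 1 ≤ K → K ≤ L →
      EE (Ibx L K) (fun ω => Mbx L K (P004.H628.ffx ω) ^ 2) ≤ C * K ^ A) : StR4x := by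
  obtain ⟨C, A, hC, hbig⟩ := hb
  have hC0 : 0 < C := by linarith
  have hE : (1 : ℝ) ≤ Real.exp 440000 := Real.one_le_exp (by norm_num)
  refine ⟨C * Real.exp 440000, A + 88000, one_le_mul_of_one_le_of_one_le hC hE,
    fun L K k₂ N hL hK hKL hN => ⟨?_, ?_⟩⟩
  · have hL0 : 0 < L := by linarith
    have hK0 : 0 < K := by linarith
    rw [EN_Mfx_eq hL0.le hK k₂ hN]
    have h1 := hbig L K hL hK hKL
    have h2 := prod_small_le hL0 hK k₂
    have h3 : Real.exp (11000 * ∑ k ∈ Ico 0 k₂, ∑ p ∈ Ik (L / K) k, (1 : ℝ) / p) ≤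
        Real.exp 440000 ^ k₂ := by
      rw [← Real.exp_nat_mul]
      apply Real.exp_le_exp.2
      have : ∑ k ∈ Ico 0 k₂, ∑ p ∈ Ik (L / K) k, (1 : ℝ) / p ≤ ∑ k ∈ Ico 0 k₂, 40 :=
        Finset.sum_le_sum fun k _ => sum_Ik (by positivity) k
      rw [Finset.sum_const, Nat.card_Ico, nsmul_eq_mul, Nat.sub_zero] at this
      linarith
    have h4 : 0 ≤ ∏ k ∈ Ico 0 k₂, EE (Ik (L / K) k)
        (fun ω => MM (Ik (L / K) k) (⌈K⌉₊ * lk k) (K / L) ω ^ 2) :=
      Finset.prod_nonneg fun k _ =>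
        EE_nonneg (fun p hp => (Ik_prime hp).one_lt.le) fun ω _ => by positivity
    calc EE (Ibx L K) (fun ω => Mbx L K (P004.H628.ffx ω) ^ 2) *
          ∏ k ∈ Ico 0 k₂, EE (Ik (L / K) k)
            (fun ω => MM (Ik (L / K) k) (⌈K⌉₊ * lk k) (K / L) ω ^ 2)
        ≤ (C * K ^ A) * Real.exp 440000 ^ k₂ :=
          mul_le_mul h1 (h2.trans h3) h4 (by positivity)
      _ ≤ (C * Real.exp 440000) ^ (k₂ + 1) * K ^ (A + 88000) := by
          have h5 : K ^ A ≤ K ^ (A + 88000) := pow_le_pow_right₀ hK (by omega)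
          have h6 : C * Real.exp 440000 ^ k₂ ≤ (C * Real.exp 440000) ^ (k₂ + 1) := by
            rw [mul_pow, pow_succ C, pow_succ (Real.exp 440000)]
            have h7 : 1 ≤ C ^ k₂ := one_le_pow₀ hC
            have h8 : 0 < Real.exp 440000 ^ k₂ := by positivity
            have h9 : 1 * C ≤ C ^ k₂ * C := mul_le_mul_of_nonneg_right h7 hC0.le
            have h10 : Real.exp 440000 ^ k₂ * 1 ≤ Real.exp 440000 ^ k₂ * Real.exp 440000 :=
              mul_le_mul_of_nonneg_left hE h8.le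
            rw [one_mul] at h9
            rw [mul_one] at h10
            exact mul_le_mul h9 h10 h8.le (by positivity)
          calc (C * K ^ A) * Real.exp 440000 ^ k₂ = (C * Real.exp 440000 ^ k₂) * K ^ A := by ring
            _ ≤ (C * Real.exp 440000) ^ (k₂ + 1) * K ^ (A + 88000) :=
              mul_le_mul h6 h5 (by positivity) (by positivity)
  · have hL0 : 0 < L := by linarith
    have hK0 : 0 < K := by linarith
    rw [EN_Mfx_eq hL0.le hK _ hN]
    have h1 := hbig L K hL hK hKL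
    have h2 := prod_small_le hL0 hK ⌈L⌉₊
    have h3 : Real.exp (11000 * ∑ k ∈ Ico 0 ⌈L⌉₊, ∑ p ∈ Ik (L / K) k, (1 : ℝ) / p) ≤
        Real.exp 88000 * L ^ 88000 := by
      calc Real.exp (11000 * ∑ k ∈ Ico 0 ⌈L⌉₊, ∑ p ∈ Ik (L / K) k, (1 : ℝ) / p)
          ≤ Real.exp (88000 + 88000 * Real.log L) := by
            apply Real.exp_le_exp.2
            linarith [sum_Ux_le hL hK ⌈L⌉₊]
        _ = Real.exp 88000 * L ^ (88000 : ℝ) := by
            rw [Real.exp_add, Real.rpow_def_of_pos hL0, mul_comm (Real.log L)]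
        _ = Real.exp 88000 * L ^ 88000 := by
            congr 1
            exact_mod_cast Real.rpow_natCast L 88000
    have h4 : 0 ≤ ∏ k ∈ Ico 0 ⌈L⌉₊, EE (Ik (L / K) k)
        (fun ω => MM (Ik (L / K) k) (⌈K⌉₊ * lk k) (K / L) ω ^ 2) :=
      Finset.prod_nonneg fun k _ =>
        EE_nonneg (fun p hp => (Ik_prime hp).one_lt.le) fun ω _ => by positivity
    calc EE (Ibx L K) (fun ω => Mbx L K (P004.H628.ffx ω) ^ 2) *
          ∏ k ∈ Ico 0 ⌈L⌉₊, EE (Ik (L / K) k)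
            (fun ω => MM (Ik (L / K) k) (⌈K⌉₊ * lk k) (K / L) ω ^ 2)
        ≤ (C * K ^ A) * (Real.exp 88000 * L ^ 88000) :=
          mul_le_mul h1 (h2.trans h3) h4 (by positivity)
      _ ≤ (C * L ^ A) * (Real.exp 440000 * L ^ 88000) := by
          have h5 : K ^ A ≤ L ^ A := pow_le_pow_left₀ hK0.le hKL A
          have h6 : Real.exp 88000 ≤ Real.exp 440000 := Real.exp_le_exp.2 (by norm_num)
          have h7 : 0 ≤ L ^ 88000 := by positivity
          exact mul_le_mul (mul_le_mul_of_nonneg_left h5 hC0.le)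
            (mul_le_mul_of_nonneg_right h6 h7) (by positivity) (by positivity)
      _ = C * Real.exp 440000 * L ^ (A + 88000) := by
          rw [pow_add]; ring

end P004G.H747

namespace P004G

variable [Crv]

/-- Module R4x : second moment of the first blocks. -/
theorem pfR4x (hb : ∃ (C : ℝ) (A : ℕ), 1 ≤ C ∧ ∀ L K : ℝ, 1 ≤ L → 1 ≤ K → K ≤ L →
    P004.H293.EE (Ibx L K) (fun ω => Mbx L K (P004.H628.ffx ω) ^ 2) ≤ C * K ^ A) : StR4x :=
  H747.r4x_of_big hb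

end P004G
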